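import Mathlib

namespace Vale.Agent.Results.P199.TwoQuadratic

open Polynomial

theorem fd_of_quadratic_relations {k A : Type*} [Field k] [Ring A] [Algebra k A]
    (a b : A) (s n t m : k)
    (ha : a * a = s • a + n • (1 : A)) (hb : b * b = t • b + m • (1 : A))
    (hc : IsIntegral k (a * b + b * a - s • b - t • a)) :
    FiniteDimensional k (Algebra.adjoin k {a, b}) := by
  set c := a * b + b * a - s • b - t • a with hcdef
  have hca : a * c = c * a := by
    simp only [hcdef, mul_sub, sub_mul, mul_add, add_mul, smul_mul_assoc, mul_smul_comm,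
      ← mul_assoc]
    rw [ha, mul_assoc b a a, ha]
    simp only [mul_add, add_mul, smul_mul_assoc, mul_smul_comm, one_mul, mul_one]
    module
  have hcb : b * c = c * b := by
    simp only [hcdef, mul_sub, sub_mul, mul_add, add_mul, smul_mul_assoc, mul_smul_comm,
      ← mul_assoc]
    rw [hb, mul_assoc a b b, hb]
    simp only [mul_add, add_mul, smul_mul_assoc, mul_smul_comm, one_mul, mul_one]
    module
  -- the commutative subalgebra generated by c
  let Z : Subalgebra k A := Algebra.adjoin k {c}
  have hZa : ∀ z ∈ Z, a * z = z * a := by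
    intro z hz
    have : Z ≤ Subalgebra.centralizer k {a} := by
      apply Algebra.adjoin_le
      intro x hx
      rw [Set.mem_singleton_iff] at hx
      subst hx
      rw [SetLike.mem_coe, Subalgebra.mem_centralizer_iff]
      intro g hg
      rw [Set.mem_singleton_iff] at hg
      subst hg
      exact hca
    have h2 := this hz
    rw [Subalgebra.mem_centralizer_iff] at h2
    exact h2 a rfl
  have hZb : ∀ z ∈ Z, b * z = z * b := by
    intro z hz
    have : Z ≤ Subalgebra.centralizer k {b} := by
      apply Algebra.adjoin_le
      intro x hx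
      rw [Set.mem_singleton_iff] at hx
      subst hx
      rw [SetLike.mem_coe, Subalgebra.mem_centralizer_iff]
      intro g hg
      rw [Set.mem_singleton_iff] at hg
      subst hg
      exact hcb
    have h2 := this hz
    rw [Subalgebra.mem_centralizer_iff] at h2
    exact h2 b rfl
  let N : Submodule k A := Submodule.span k {1, a, b, a * b}
  let M : Submodule k A := Subalgebra.toSubmodule Z * N
  have hcZ : c ∈ Subalgebra.toSubmodule Z := Algebra.subset_adjoin (Set.mem_singleton c)
  have h1Z : (1 : A) ∈ Subalgebra.toSubmodule Z := Z.one_mem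
  have h1N : (1 : A) ∈ N := Submodule.subset_span (by simp)
  have haN : a ∈ N := Submodule.subset_span (by simp)
  have hbN : b ∈ N := Submodule.subset_span (by simp)
  have habN : a * b ∈ N := Submodule.subset_span (by simp)
  have hNM : ∀ x ∈ N, x ∈ M := by
    intro x hx
    have := Submodule.mul_mem_mul h1Z hx
    rwa [one_mul] at this
  have hZM : ∀ z ∈ Z, ∀ x ∈ M, z * x ∈ M := by
    intro z hz x hx
    refine Submodule.mul_induction_on hx ?_ ?_
    · intro u hu w hw
      rw [← mul_assoc]
      exact Submodule.mul_mem_mul (Z.mul_mem hz hu) hw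
    · intro x y hx hy
      rw [mul_add]
      exact M.add_mem hx hy
  -- a * N ⊆ M and b * N ⊆ M
  have haNM : ∀ x ∈ N, a * x ∈ M := by
    intro x hx
    refine Submodule.span_induction ?_ ?_ ?_ ?_ hx
    · intro y hy
      simp only [Set.mem_insert_iff, Set.mem_singleton_iff] at hy
      rcases hy with rfl | rfl | rfl | rfl
      · rw [mul_one]; exact hNM _ haN
      · rw [ha]
        exact M.add_mem (M.smul_mem _ (hNM _ haN)) (M.smul_mem _ (hNM _ h1N))
      · exact hNM _ habN
      · rw [← mul_assoc, ha, add_mul, smul_mul_assoc, smul_mul_assoc, one_mul]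
        exact M.add_mem (M.smul_mem _ (hNM _ habN)) (M.smul_mem _ (hNM _ hbN))
    · rw [mul_zero]; exact M.zero_mem
    · intro x y _ _ hx hy
      rw [mul_add]; exact M.add_mem hx hy
    · intro r x _ hx
      rw [mul_smul_comm]; exact M.smul_mem _ hx
  have hba : b * a = c - a * b + s • b + t • a := by
    rw [hcdef]; abel
  have hbNM : ∀ x ∈ N, b * x ∈ M := by
    intro x hx
    refine Submodule.span_induction ?_ ?_ ?_ ?_ hx
    · intro y hy
      simp only [Set.mem_insert_iff, Set.mem_singleton_iff] at hy
      rcases hy with rfl | rfl | rfl | rfl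
      · rw [mul_one]; exact hNM _ hbN
      · rw [hba]
        have hc1 : c ∈ M := by
          have := Submodule.mul_mem_mul hcZ h1N
          rwa [mul_one] at this
        exact M.add_mem (M.add_mem (M.sub_mem hc1 (hNM _ habN)) (M.smul_mem _ (hNM _ hbN)))
          (M.smul_mem _ (hNM _ haN))
      · rw [hb]
        exact M.add_mem (M.smul_mem _ (hNM _ hbN)) (M.smul_mem _ (hNM _ h1N))
      · have : b * (a * b) = c * b - m • a + (s * t) • b + (s * m) • (1 : A) := by
          rw [← mul_assoc, hba]
          simp only [sub_mul, add_mul, smul_mul_assoc, mul_assoc, hb, mul_add, mul_smul_comm,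
            mul_one, smul_add, smul_smul]
          module
        rw [this]
        have hcb' : c * b ∈ M := Submodule.mul_mem_mul hcZ hbN
        exact M.add_mem (M.add_mem (M.sub_mem hcb' (M.smul_mem _ (hNM _ haN)))
          (M.smul_mem _ (hNM _ hbN))) (M.smul_mem _ (hNM _ h1N))
    · rw [mul_zero]; exact M.zero_mem
    · intro x y _ _ hx hy
      rw [mul_add]; exact M.add_mem hx hy
    · intro r x _ hx
      rw [mul_smul_comm]; exact M.smul_mem _ hx
  have haM : ∀ x ∈ M, a * x ∈ M := by
    intro x hx
    refine Submodule.mul_induction_on hx ?_ ?_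
    · intro z hz w hw
      rw [← mul_assoc, hZa z hz, mul_assoc]
      exact hZM z hz _ (haNM w hw)
    · intro x y hx hy
      rw [mul_add]; exact M.add_mem hx hy
  have hbM : ∀ x ∈ M, b * x ∈ M := by
    intro x hx
    refine Submodule.mul_induction_on hx ?_ ?_
    · intro z hz w hw
      rw [← mul_assoc, hZb z hz, mul_assoc]
      exact hZM z hz _ (hbNM w hw)
    · intro x y hx hy
      rw [mul_add]; exact M.add_mem hx hy
  have key : ∀ x ∈ Algebra.adjoin k {a, b}, ∀ y ∈ M, x * y ∈ M := by
    intro x hx
    refine Algebra.adjoin_induction ?_ ?_ ?_ ?_ hx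
    · intro u hu y hy
      simp only [Set.mem_insert_iff, Set.mem_singleton_iff] at hu
      rcases hu with rfl | rfl
      · exact haM y hy
      · exact hbM y hy
    · intro r y hy
      rw [← Algebra.smul_def]; exact M.smul_mem _ hy
    · intro u v _ _ hu hv y hy
      rw [add_mul]; exact M.add_mem (hu y hy) (hv y hy)
    · intro u v _ _ hu hv y hy
      rw [mul_assoc]; exact hu _ (hv y hy)
  have hle : Subalgebra.toSubmodule (Algebra.adjoin k {a, b}) ≤ M := by
    intro x hx
    have := key x hx 1 (hNM _ h1N)
    rwa [mul_one] at this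
  have hMfg : M.FG := by
    apply Submodule.FG.mul
    · exact hc.fg_adjoin_singleton
    · exact Submodule.fg_span (by simp)
  have : FiniteDimensional k M := Module.Finite.of_fg hMfg
  exact Submodule.finiteDimensional_of_le hle

theorem exists_quadratic_relation {k A : Type*} [Field k] [Ring A] [Nontrivial A] [Algebra k A]
    (a : A) (hint : IsIntegral k a) (ha : (minpoly k a).natDegree ≤ 2) :
    ∃ s n : k, a * a = s • a + n • (1 : A) := by
  have hmonic := minpoly.monic hint
  have hpos := minpoly.natDegree_pos hint
  have hev := minpoly.aeval k a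
  rcases Nat.lt_or_ge (minpoly k a).natDegree 2 with h | h
  · have h1 : (minpoly k a).natDegree = 1 := by omega
    have hp := hmonic.eq_X_add_C h1
    rw [hp] at hev
    simp only [map_add, aeval_X, aeval_C, Algebra.algebraMap_eq_smul_one] at hev
    refine ⟨-((minpoly k a).coeff 0), 0, ?_⟩
    have ha' : a = (-((minpoly k a).coeff 0)) • (1 : A) := by
      rw [neg_smul]; exact eq_neg_of_add_eq_zero_left hev
    have h3 : a * a = (-((minpoly k a).coeff 0)) • a := by
      nth_rewrite 1 [ha']
      rw [smul_mul_assoc, one_mul]
    rw [h3, zero_smul, add_zero]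
  · have h2 : (minpoly k a).natDegree = 2 := by omega
    have hdeg : (minpoly k a).degree ≤ 2 := by
      rw [Polynomial.degree_le_iff_coeff_zero]
      intro m hm
      apply Polynomial.coeff_eq_zero_of_natDegree_lt
      rw [h2]
      exact_mod_cast hm
    have hp := Polynomial.eq_quadratic_of_degree_le_two hdeg
    have hlead : (minpoly k a).coeff 2 = 1 := by
      have := hmonic.coeff_natDegree
      rwa [h2] at this
    rw [hlead] at hp
    rw [hp] at hev
    simp only [map_add, map_mul, map_one, one_mul, map_pow, aeval_X, aeval_C,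
      Algebra.algebraMap_eq_smul_one, smul_mul_assoc] at hev
    refine ⟨-((minpoly k a).coeff 1), -((minpoly k a).coeff 0), ?_⟩
    rw [neg_smul, neg_smul, ← pow_two]
    rw [← sub_eq_zero]
    rw [← hev]
    abel

theorem result {k D : Type*} [Field k] [DivisionRing D] [Algebra k D]
    [Algebra.IsAlgebraic k D] (a b : D)
    (ha : (minpoly k a).natDegree ≤ 2) (hb : (minpoly k b).natDegree ≤ 2) :
    FiniteDimensional k (Algebra.adjoin k {a, b}) := by
  obtain ⟨s, n, hs⟩ := exists_quadratic_relation a (Algebra.IsIntegral.isIntegral a) ha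
  obtain ⟨t, m, ht⟩ := exists_quadratic_relation b (Algebra.IsIntegral.isIntegral b) hb
  exact fd_of_quadratic_relations a b s n t m hs ht (Algebra.IsIntegral.isIntegral _)

end Vale.Agent.Results.P199.TwoQuadratic
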